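import Vale.Agent.P121.Main

/-!
# P121: an absolutely continuous measure on `ℝ³` without an optimal Monge plan
-/

open MeasureTheory Vale.Agent.P121 in
/-- There is a Borel probability measure `μ` on `ℝ³`, absolutely continuous with respect to
Lebesgue measure and with finite Kantorovich value for the three-marginal Coulomb cost, that admits
no optimal Monge plan: no pair of Borel maps `T₂, T₃` with `(T₂)_# μ = (T₃)_# μ = μ` has
`∫ c(x, T₂ x, T₃ x) dμ(x)` equal to the Kantorovich value. -/
theorem Vale.Agent.Results.P121.NoMongePlan.result :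
    ∃ μ : Measure E3, IsProbabilityMeasure μ ∧ μ ≪ volume ∧ kantorovichValue μ < ⊤ ∧
      ¬ ∃ T₂ T₃ : E3 → E3, IsOptimalMonge μ T₂ T₃ :=
  ⟨mu, inferInstance, mu_ac, value_lt_top, fun ⟨_, _, h⟩ => no_optimal_monge h⟩
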